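import Vale.Agent.P208U.Defs

/-!
# P208: subsets, similarities, compactness
-/

set_option autoImplicit false

namespace Vale.Agent.P208U

open Filter Topology

theorem sub_doubling {E : Type*} [PseudoMetricSpace E] {lam : ℕ} {X Y : Set E}
    (h : DoublingWith lam X) (hYX : Y ⊆ X) : DoublingWith (lam * lam) Y := by
  classical
  intro y hy r hr
  obtain ⟨C, hC1, hC2, hC3⟩ := h y (hYX hy) r hr
  have h2 : ∀ c : E, ∃ T : Finset E, c ∈ C → (∀ t ∈ T, t ∈ X) ∧ T.card ≤ lam ∧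
      ∀ z ∈ X, dist z c ≤ r / 2 → ∃ t ∈ T, dist z t ≤ r / 2 / 2 := by
    intro c
    by_cases hc : c ∈ C
    · obtain ⟨T, hT⟩ := h c (hC1 c hc) (r / 2) (by positivity)
      exact ⟨T, fun _ => hT⟩
    · exact ⟨∅, fun h => absurd h hc⟩
  choose T hT using h2
  have h3 : ∀ t : E, ∃ w : E, w ∈ Y ∧ ((∃ z ∈ Y, dist z t ≤ r / 2 / 2) → dist w t ≤ r / 2 / 2) := by
    intro t
    by_cases ht : ∃ z ∈ Y, dist z t ≤ r / 2 / 2
    · obtain ⟨z, hz1, hz2⟩ := ht
      exact ⟨z, hz1, fun _ => hz2⟩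
    · exact ⟨y, hy, fun h => absurd h ht⟩
  choose w hw1 hw2 using h3
  refine ⟨(C.biUnion T).image w, ?_, ?_, ?_⟩
  · intro c hc
    rw [Finset.mem_image] at hc
    obtain ⟨t, _, rfl⟩ := hc
    exact hw1 t
  · refine Finset.card_image_le.trans (Finset.card_biUnion_le.trans ?_)
    calc ∑ c ∈ C, (T c).card ≤ ∑ _c ∈ C, lam := Finset.sum_le_sum fun c hc => (hT c hc).2.1
      _ = C.card * lam := by rw [Finset.sum_const, smul_eq_mul]
      _ ≤ lam * lam := Nat.mul_le_mul_right _ hC2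
  · intro z hz hzr
    obtain ⟨c, hc, hzc⟩ := hC3 z (hYX hz) hzr
    obtain ⟨t, ht, hzt⟩ := (hT c hc).2.2 z (hYX hz) hzc
    refine ⟨w t, Finset.mem_image_of_mem _ (Finset.mem_biUnion.2 ⟨c, hc, ht⟩), ?_⟩
    have h4 := hw2 t ⟨z, hz, hzt⟩
    have h5 := dist_triangle z t (w t)
    rw [dist_comm t (w t)] at h5
    linarith

theorem image_doubling {E F : Type*} [PseudoMetricSpace E] [PseudoMetricSpace F] {lam : ℕ}
    {X : Set E} (h : DoublingWith lam X) (φ : E → F) {c : ℝ} (hc : 0 < c)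
    (hφ : ∀ x y, dist (φ x) (φ y) = c * dist x y) : DoublingWith lam (φ '' X) := by
  classical
  rintro _ ⟨x, hx, rfl⟩ r hr
  obtain ⟨C, hC1, hC2, hC3⟩ := h x hx (r / c) (by positivity)
  refine ⟨C.image φ, ?_, Finset.card_image_le.trans hC2, ?_⟩
  · intro d hd
    rw [Finset.mem_image] at hd
    obtain ⟨e, he, rfl⟩ := hd
    exact ⟨e, hC1 e he, rfl⟩
  · rintro _ ⟨y, hy, rfl⟩ hyr
    rw [hφ] at hyr
    obtain ⟨e, he, hye⟩ := hC3 y hy (by rw [le_div_iff₀ hc]; linarith)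
    refine ⟨φ e, Finset.mem_image_of_mem _ he, ?_⟩
    rw [hφ]
    calc c * dist y e ≤ c * (r / c / 2) := by gcongr
      _ = r / 2 := by field_simp

/-- the isometric inclusion -/
noncomputable def incl (k m : ℕ) (v : EuclideanSpace ℝ (Fin k)) :
    EuclideanSpace ℝ (Fin (k + m)) :=
  WithLp.toLp 2 (Fin.append (fun i => v i) (fun _ : Fin m => (0 : ℝ)))

theorem dist_incl (k m : ℕ) (u v : EuclideanSpace ℝ (Fin k)) :
    dist (incl k m u) (incl k m v) = dist u v := by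
  rw [EuclideanSpace.dist_eq, EuclideanSpace.dist_eq, Fin.sum_univ_add]
  congr 1
  simp [incl]

theorem Embeds.mono {E : Type*} [PseudoMetricSpace E] {k k' : ℕ} {D D' : ℝ} {X Y : Set E}
    (h : Embeds k D X) (hYX : Y ⊆ X) (hk : k ≤ k') (hD : D ≤ D') : Embeds k' D' Y := by
  obtain ⟨f, a, ha, hf⟩ := h
  obtain ⟨m, rfl⟩ := Nat.exists_eq_add_of_le hk
  refine ⟨fun x => incl k m (f x), a, ha, ?_⟩
  intro x hx y hy
  rw [dist_incl]
  obtain ⟨h1, h2⟩ := hf x (hYX hx) y (hYX hy)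
  refine ⟨h1, h2.trans ?_⟩
  have : 0 ≤ a * dist x y := by positivity
  nlinarith

theorem Embeds.of_image {E F : Type*} [PseudoMetricSpace E] [PseudoMetricSpace F] {k : ℕ}
    {D : ℝ} {X : Set E} {φ : E → F} {c : ℝ} (hc : 0 < c)
    (hφ : ∀ x y, dist (φ x) (φ y) = c * dist x y) (h : Embeds k D (φ '' X)) : Embeds k D X := by
  obtain ⟨f, a, ha, hf⟩ := h
  refine ⟨fun x => f (φ x), a * c, by positivity, ?_⟩
  intro x hx y hy
  obtain ⟨h1, h2⟩ := hf _ ⟨x, hx, rfl⟩ _ ⟨y, hy, rfl⟩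
  rw [hφ] at h1 h2
  exact ⟨by linarith [mul_assoc a c (dist x y)], by rw [mul_assoc a c]; exact h2⟩

theorem embeds_of_finite {E : Type*} [PseudoMetricSpace E] {k : ℕ} {D : ℝ} {X : Set E}
    (h : ∀ F : Finset E, (F : Set E) ⊆ X → Embeds k D (F : Set E)) : Embeds k D X := by
  classical
  rcases X.eq_empty_or_nonempty with rfl | ⟨x0, hx0⟩
  · exact ⟨fun _ => 0, 1, one_pos, fun x hx => absurd hx (Set.notMem_empty x)⟩
  have h1 : ∀ F : Finset X, ∃ g : E → EuclideanSpace ℝ (Fin k), g x0 = 0 ∧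
      ∀ x ∈ F, ∀ y ∈ insert (⟨x0, hx0⟩ : X) F, dist (x : E) (y : E) ≤ dist (g x) (g y) ∧
        dist (g x) (g y) ≤ D * dist (x : E) (y : E) := by
    intro F
    obtain ⟨f, a, ha, hf⟩ := h ((insert (⟨x0, hx0⟩ : X) F).image Subtype.val) (by
      intro z hz
      rw [Finset.mem_coe, Finset.mem_image] at hz
      obtain ⟨w, _, rfl⟩ := hz
      exact w.2)
    refine ⟨fun x => a⁻¹ • (f x - f x0), by simp, ?_⟩
    intro x hx y hy
    obtain ⟨h2, h3⟩ := hf x (Finset.mem_coe.2 (Finset.mem_image_of_mem _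
      (Finset.mem_insert_of_mem hx))) y (Finset.mem_coe.2 (Finset.mem_image_of_mem _ hy))
    have h4 : dist (a⁻¹ • (f x - f x0)) (a⁻¹ • (f y - f x0)) = a⁻¹ * dist (f x) (f y) := by
      rw [dist_smul₀, Real.norm_of_nonneg (by positivity), dist_sub_right]
    simp only [h4]
    constructor
    · rw [← div_eq_inv_mul, le_div_iff₀ ha]; linarith
    · rw [← div_eq_inv_mul, div_le_iff₀ ha]; linarith
  choose g hg0 hg using h1
  let U : Ultrafilter (Finset X) := Ultrafilter.of atTop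
  have hU : (U : Filter (Finset X)) ≤ atTop := Ultrafilter.of_le atTop
  have hev : ∀ x : X, ∀ᶠ F in (U : Filter (Finset X)), x ∈ F := by
    intro x
    apply hU
    filter_upwards [eventually_ge_atTop ({x} : Finset X)] with F hF
    exact hF (Finset.mem_singleton_self x)
  have hlim : ∀ x : X, ∃ y : EuclideanSpace ℝ (Fin k), Tendsto (fun F => g F x) U (𝓝 y) := by
    intro x
    have hc : IsCompact (Metric.closedBall (0 : EuclideanSpace ℝ (Fin k)) (D * dist (x : E) x0)) :=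
      isCompact_closedBall _ _
    obtain ⟨y, _, hy⟩ := hc.ultrafilter_le_nhds' (U.map (fun F => g F x)) (by
      rw [Ultrafilter.mem_map]
      filter_upwards [hev x] with F hF
      rw [Set.mem_preimage, Metric.mem_closedBall]
      have := (hg F x hF ⟨x0, hx0⟩ (Finset.mem_insert_self _ _)).2
      simp only [hg0] at this
      exact this)
    exact ⟨y, hy⟩
  choose G hG using hlim
  refine ⟨fun x => if hx : x ∈ X then G ⟨x, hx⟩ else 0, 1, one_pos, ?_⟩
  intro x hx y hy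
  simp only [hx, hy, dif_pos, one_mul]
  have ht : Tendsto (fun F => dist (g F x) (g F y)) U (𝓝 (dist (G ⟨x, hx⟩) (G ⟨y, hy⟩))) :=
    (hG ⟨x, hx⟩).dist (hG ⟨y, hy⟩)
  have he : ∀ᶠ F in (U : Filter (Finset X)), dist x y ≤ dist (g F x) (g F y) ∧
      dist (g F x) (g F y) ≤ D * dist x y := by
    filter_upwards [hev ⟨x, hx⟩, hev ⟨y, hy⟩] with F h1 h2
    exact hg F ⟨x, hx⟩ h1 ⟨y, hy⟩ (Finset.mem_insert_of_mem h2)
  constructor
  · exact ge_of_tendsto ht (he.mono fun F h => h.1)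
  · exact le_of_tendsto ht (he.mono fun F h => h.2)

end Vale.Agent.P208U
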