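import Mathlib

/-!
# P208: definitions
-/

set_option autoImplicit false

namespace Vale.Agent.P208U

/-- real separable Hilbert space -/
abbrev ell2 : Type := lp (fun _ : ℕ => ℝ) 2

/-- `X` (with the induced distance) is doubling with constant at most `lam`: every closed ball of
`X` is covered by at most `lam` closed balls of half its radius with centres in `X` -/
def DoublingWith {E : Type*} [PseudoMetricSpace E] (lam : ℕ) (X : Set E) : Prop :=
  ∀ x ∈ X, ∀ r : ℝ, 0 < r → ∃ C : Finset E, (∀ c ∈ C, c ∈ X) ∧ C.card ≤ lam ∧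
    ∀ y ∈ X, dist y x ≤ r → ∃ c ∈ C, dist y c ≤ r / 2

/-- `X` (with the induced distance) embeds into `ℝ^k` with distortion at most `D` -/
def Embeds {E : Type*} [PseudoMetricSpace E] (k : ℕ) (D : ℝ) (X : Set E) : Prop :=
  ∃ (f : E → EuclideanSpace ℝ (Fin k)) (a : ℝ), 0 < a ∧ ∀ x ∈ X, ∀ y ∈ X,
    a * dist x y ≤ dist (f x) (f y) ∧ dist (f x) (f y) ≤ D * (a * dist x y)

end Vale.Agent.P208U
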