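import Vale.Agent.P208U.Basic

/-!
# P208: gluing scaled copies along a converging sequence
-/

set_option autoImplicit false

namespace Vale.Agent.P208U

open Filter Topology

variable {E : Type*} [NormedAddCommGroup E] [NormedSpace ℝ E]

/-- the scales -/
noncomputable def sc (n : ℕ) : ℝ := (1 / 4 : ℝ) ^ n

theorem sc_pos (n : ℕ) : 0 < sc n := by unfold sc; positivity

theorem sc_succ (n : ℕ) : sc (n + 1) = sc n / 4 := by unfold sc; rw [pow_succ]; ring

theorem sc_anti {i j : ℕ} (h : i ≤ j) : sc j ≤ sc i := by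
  unfold sc
  exact pow_le_pow_of_le_one (by norm_num) (by norm_num) h

theorem sc_lt {i j : ℕ} (h : i < j) : sc j ≤ sc i / 4 := by
  rw [← sc_succ]
  exact sc_anti h

/-- the glued set is doubling -/
theorem glue_doubling {lam : ℕ} {P : ℕ → Set E} {p : ℕ → E} (hp : ∀ n, p n ∈ P n)
    (hP : ∀ n, DoublingWith lam (P n)) (hnear : ∀ n, ∀ z ∈ P n, dist z (p n) ≤ sc n / 8)
    (hpp : ∀ i j, dist (p i) (p j) = |sc i - sc j|) (hp0 : ∀ n, dist (p n) 0 = sc n) :
    DoublingWith (3 * lam + 1 + lam) ({z | z = 0 ∨ ∃ n, z ∈ P n}) := by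
  classical
  have hn1 : ∀ n, ∀ z ∈ P n, dist z 0 ≤ 9 / 8 * sc n := by
    intro n z hz
    have h1 := hnear n z hz
    have h2 := dist_triangle z (p n) 0
    rw [hp0] at h2
    linarith
  have hn2 : ∀ n, ∀ z ∈ P n, 7 / 8 * sc n ≤ dist z 0 := by
    intro n z hz
    have h1 := hnear n z hz
    have h2 := dist_triangle (p n) z 0
    rw [hp0, dist_comm (p n) z] at h2
    linarith
  intro x hx r hr
  by_cases hcase : ∃ n, x ∈ P n ∧ r ≤ sc n / 4
  · obtain ⟨n, hxn, hrn⟩ := hcase
    obtain ⟨C, hC1, hC2, hC3⟩ := hP n x hxn r hr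
    refine ⟨C, fun c hc => Or.inr ⟨n, hC1 c hc⟩, by omega, ?_⟩
    rintro y (rfl | ⟨j, hyj⟩) hyx
    · exfalso
      have h1 := hn2 n x hxn
      rw [dist_comm] at h1
      have := sc_pos n
      linarith
    · rcases lt_trichotomy j n with h | h | h
      · exfalso
        have h1 := hnear j y hyj
        have h2 := hnear n x hxn
        have h3 := hpp j n
        have h4 := sc_lt h
        have h5 := sc_pos n
        rw [abs_of_pos (by linarith)] at h3
        have h6 := dist_triangle (p j) y (p n)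
        have h7 := dist_triangle y x (p n)
        rw [dist_comm (p j) y] at h6
        linarith
      · subst h
        exact hC3 y hyj hyx
      · exfalso
        have h1 := hnear j y hyj
        have h2 := hnear n x hxn
        have h3 := hpp n j
        have h4 := sc_lt h
        have h5 := sc_pos n
        rw [abs_of_pos (by linarith)] at h3
        have h6 := dist_triangle (p n) x (p j)
        have h7 := dist_triangle x y (p j)
        rw [dist_comm (p n) x] at h6
        rw [dist_comm x y] at h7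
        linarith
  · push Not at hcase
    have hx0 : dist x 0 ≤ 9 / 2 * r := by
      rcases hx with rfl | ⟨n, hxn⟩
      · simp; positivity
      · have h1 := hcase n hxn
        have h2 := hn1 n x hxn
        linarith
    -- the least scale below `8 r`
    have hex : ∃ j, sc j < 8 * r := by
      obtain ⟨j, hj⟩ := exists_pow_lt_of_lt_one (show (0 : ℝ) < 8 * r by positivity)
        (show (1 / 4 : ℝ) < 1 by norm_num)
      exact ⟨j, hj⟩
    obtain ⟨j0, hj0, hmin⟩ : ∃ j0, sc j0 < 8 * r ∧ ∀ j < j0, ¬ sc j < 8 * r :=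
      ⟨Nat.find hex, Nat.find_spec hex, fun j hj => Nat.find_min hex hj⟩
    have hcov : ∀ j, ∃ C : Finset E, (∀ c ∈ C, c ∈ P j) ∧ C.card ≤ lam ∧
        ∀ y ∈ P j, dist y (p j) ≤ r → ∃ c ∈ C, dist y c ≤ r / 2 := fun j => hP j (p j) (hp j) r hr
    choose C hC1 hC2 hC3 using hcov
    refine ⟨C j0 ∪ (C (j0 + 1) ∪ (C (j0 + 2) ∪ {0})), ?_, ?_, ?_⟩
    · intro c hc
      simp only [Finset.mem_union, Finset.mem_singleton] at hc
      rcases hc with hc | hc | hc | hc
      · exact Or.inr ⟨_, hC1 _ c hc⟩
      · exact Or.inr ⟨_, hC1 _ c hc⟩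
      · exact Or.inr ⟨_, hC1 _ c hc⟩
      · exact Or.inl hc
    · have h1 := Finset.card_union_le (C j0) (C (j0 + 1) ∪ (C (j0 + 2) ∪ {0}))
      have h2 := Finset.card_union_le (C (j0 + 1)) (C (j0 + 2) ∪ {0})
      have h3 := Finset.card_union_le (C (j0 + 2)) ({0} : Finset E)
      rw [Finset.card_singleton] at h3
      have h4 := hC2 j0
      have h5 := hC2 (j0 + 1)
      have h6 := hC2 (j0 + 2)
      omega
    · intro y hy hyx
      have hy0 : dist y 0 ≤ 11 / 2 * r := by
        have := dist_triangle y x 0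
        linarith
      by_cases hsmall : dist y 0 ≤ r / 2
      · exact ⟨0, by simp, hsmall⟩
      · rcases hy with rfl | ⟨j, hyj⟩
        · exfalso
          apply hsmall
          simp; positivity
        · have h1 := hn1 j y hyj
          have h2 := hn2 j y hyj
          have h3 : sc j < 8 * r := by linarith
          have h4 : j0 ≤ j := by
            by_contra hcon
            exact hmin j (by omega) h3
          have h5 : j ≤ j0 + 2 := by
            by_contra hcon
            have h6 : sc j ≤ sc (j0 + 3) := sc_anti (by omega)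
            rw [sc_succ, sc_succ, sc_succ] at h6
            push Not at hsmall
            linarith
          have h6 : dist y (p j) ≤ r := by
            have := hnear j y hyj
            linarith
          obtain ⟨c, hc, hyc⟩ := hC3 j y hyj h6
          refine ⟨c, ?_, hyc⟩
          have h7 : j = j0 ∨ j = j0 + 1 ∨ j = j0 + 2 := by omega
          simp only [Finset.mem_union]
          rcases h7 with rfl | rfl | rfl
          · exact Or.inl hc
          · exact Or.inr (Or.inl hc)
          · exact Or.inr (Or.inr (Or.inl hc))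

/-- gluing finite sets -/
theorem glue (e : E) (he : ‖e‖ = 1) {lam : ℕ} (F : ℕ → Set E) (hfin : ∀ n, (F n).Finite)
    (hne : ∀ n, (F n).Nonempty) (hF : ∀ n, DoublingWith lam (F n)) :
    ∃ X : Set E, (∃ q ∈ X, ∀ ε > (0 : ℝ), (X \ Metric.closedBall q ε).Finite) ∧
      DoublingWith (3 * lam + 1 + lam) X ∧
      ∀ n, ∃ (φ : E → E) (c : ℝ), 0 < c ∧ (∀ x y, dist (φ x) (φ y) = c * dist x y) ∧
        φ '' (F n) ⊆ X := by
  choose b hb using hne
  have hR : ∀ n, ∃ R : ℝ, 0 < R ∧ ∀ z ∈ F n, dist z (b n) ≤ R := by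
    intro n
    obtain ⟨R, hR⟩ := (hfin n).isBounded.subset_closedBall (b n)
    refine ⟨max R 1, by positivity, fun z hz => ?_⟩
    exact (Metric.mem_closedBall.1 (hR hz)).trans (le_max_left _ _)
  choose R hR0 hR1 using hR
  let c : ℕ → ℝ := fun n => sc n / 8 / R n
  have hc : ∀ n, 0 < c n := fun n => div_pos (div_pos (sc_pos n) (by norm_num)) (hR0 n)
  let φ : ℕ → E → E := fun n z => sc n • e + c n • (z - b n)
  have hφ : ∀ n x y, dist (φ n x) (φ n y) = c n * dist x y := by
    intro n x y
    simp only [φ]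
    rw [dist_add_left, dist_smul₀, Real.norm_of_nonneg (hc n).le, dist_sub_right]
  have hφb : ∀ n, φ n (b n) = sc n • e := by intro n; simp [φ]
  have hnear : ∀ n, ∀ z ∈ φ n '' F n, dist z (sc n • e) ≤ sc n / 8 := by
    rintro n _ ⟨z, hz, rfl⟩
    rw [← hφb n, hφ]
    calc c n * dist z (b n) ≤ c n * R n := by
          have := hR1 n z hz
          have := (hc n).le
          gcongr
      _ = sc n / 8 := by
          simp only [c]
          have := (hR0 n).ne'
          field_simp
  have hp0 : ∀ n, dist (sc n • e) 0 = sc n := by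
    intro n
    rw [dist_zero_right, norm_smul, he, mul_one, Real.norm_of_nonneg (sc_pos n).le]
  refine ⟨{z | z = 0 ∨ ∃ n, z ∈ φ n '' F n}, ⟨0, Or.inl rfl, ?_⟩, ?_, ?_⟩
  · intro ε hε
    obtain ⟨N, hN⟩ := exists_pow_lt_of_lt_one (show (0 : ℝ) < ε / 2 by positivity)
        (show (1 / 4 : ℝ) < 1 by norm_num)
    have hfinU : (⋃ n ∈ Finset.range N, φ n '' F n).Finite :=
      Set.Finite.biUnion (Finset.finite_toSet _) fun n _ => (hfin n).image _
    refine hfinU.subset ?_
    rintro z ⟨hz | ⟨n, hz⟩, hzε⟩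
    · exfalso
      apply hzε
      rw [hz]
      exact Metric.mem_closedBall_self hε.le
    · rw [Set.mem_iUnion₂]
      refine ⟨n, ?_, hz⟩
      rw [Finset.mem_range]
      by_contra hcon
      apply hzε
      rw [Metric.mem_closedBall]
      have h1 := hnear n z hz
      have h2 := dist_triangle z (sc n • e) 0
      rw [hp0] at h2
      have h3 : sc n ≤ sc N := sc_anti (by omega)
      have h4 : sc N < ε / 2 := hN
      linarith
  · apply glue_doubling (P := fun n => φ n '' F n) (p := fun n => sc n • e)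
    · intro n
      exact ⟨b n, hb n, hφb n⟩
    · intro n
      exact image_doubling (hF n) (φ n) (hc n) (hφ n)
    · exact hnear
    · intro i j
      rw [dist_eq_norm, ← sub_smul, norm_smul, he, mul_one, Real.norm_eq_abs]
    · exact hp0
  · intro n
    refine ⟨φ n, c n, hc n, hφ n, ?_⟩
    rintro _ ⟨z, hz, rfl⟩
    exact Or.inr ⟨n, z, hz, rfl⟩

/-- from convergent sequences to uniform finite statements -/
theorem uniform_of_seq (e : E) (he : ‖e‖ = 1)
    (h : ∀ X : Set E, (∃ q ∈ X, ∀ ε > (0 : ℝ), (X \ Metric.closedBall q ε).Finite) →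
      (∃ lam, DoublingWith lam X) → ∃ (k : ℕ) (D : ℝ), Embeds k D X) (lam : ℕ) :
    ∃ (k : ℕ) (D : ℝ), ∀ X : Set E, X.Finite → DoublingWith lam X → Embeds k D X := by
  by_contra hcon
  push Not at hcon
  choose F hF using fun n : ℕ => hcon n n
  have hne : ∀ n, (F n).Nonempty := by
    intro n
    rw [Set.nonempty_iff_ne_empty]
    intro h0
    apply (hF n).2.2
    rw [h0]
    exact ⟨fun _ => 0, 1, one_pos, fun x hx => absurd hx (Set.notMem_empty x)⟩
  obtain ⟨X, hX1, hX2, hX3⟩ := glue e he F (fun n => (hF n).1) hne (fun n => (hF n).2.1)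
  obtain ⟨k, D, hkD⟩ := h X hX1 ⟨_, hX2⟩
  obtain ⟨n, hn⟩ := exists_nat_ge (max (k : ℝ) D)
  have h1 : k ≤ n := by exact_mod_cast (le_max_left _ _).trans hn
  have h2 : D ≤ n := (le_max_right _ _).trans hn
  obtain ⟨φ, c, hc, hφ, hsub⟩ := hX3 n
  exact (hF n).2.2 (Embeds.of_image hc hφ (hkD.mono hsub h1 h2))

/-- from uniform finite statements to uniform statements -/
theorem uniform_of_finite
    (h : ∀ lam : ℕ, ∃ (k : ℕ) (D : ℝ), ∀ X : Set E, X.Finite → DoublingWith lam X →
      Embeds k D X) (lam : ℕ) :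
    ∃ (k : ℕ) (D : ℝ), ∀ X : Set E, DoublingWith lam X → Embeds k D X := by
  obtain ⟨k, D, hkD⟩ := h (lam * lam)
  refine ⟨k, D, fun X hX => embeds_of_finite fun F hF => ?_⟩
  exact hkD F F.finite_toSet (sub_doubling hX hF)

end Vale.Agent.P208U
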